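import Vale.Agent.P074.Third

/-!
The stability exponent of quadratic optimal transport maps: the supremum of the admissible
exponents is `1/3`, and it is attained.
-/

open Vale.Agent.P074

namespace Vale.Agent.Results.P074.ExactExponent

/-- In every dimension `d ≥ 2` the largest admissible exponent is `1/3`: it is admissible, and no
larger exponent is. In particular `alphaStar d = 1/3` and `1/2` is not admissible. -/
theorem result {d : ℕ} (hd : 2 ≤ d) :
    IsGreatest {α : ℝ | Admissible d α} (1 / 3) ∧ alphaStar d = 1 / 3 ∧
      ¬ Admissible d (1 / 2) := by
  have h : IsGreatest {α : ℝ | Admissible d α} (1 / 3) := by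
    refine ⟨third_admissible hd, fun α hα => ?_⟩
    by_contra hc
    exact not_admissible_of_gt hd (not_le.1 hc) hα
  exact ⟨h, h.csSup_eq, not_admissible_of_gt hd (by norm_num)⟩

end Vale.Agent.Results.P074.ExactExponent
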