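import Vale.Agent.P074.Example

/-!
Stability of quadratic optimal transport maps: no exponent above `1/3` is admissible. In
particular the square-root conjecture is false.
-/

open Vale.Agent.P074

namespace Vale.Agent.Results.P074.SquareRootFalse

/-- In every dimension `d ≥ 2` no exponent `α > 1/3` is admissible; in particular `1/2` is not
admissible (the square-root conjecture fails) and the supremum of the admissible exponents is at
most `1/3`. -/
theorem result {d : ℕ} (hd : 2 ≤ d) :
    (∀ α : ℝ, 1 / 3 < α → ¬ Admissible d α) ∧ ¬ Admissible d (1 / 2) ∧ alphaStar d ≤ 1 / 3 := by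
  refine ⟨fun α hα => not_admissible_of_gt hd hα, not_admissible_of_gt hd (by norm_num), ?_⟩
  rcases Set.eq_empty_or_nonempty {α : ℝ | Admissible d α} with h | h
  · rw [alphaStar, h, Real.sSup_empty]
    norm_num
  · apply csSup_le h
    intro α hα
    by_contra hc
    exact not_admissible_of_gt hd (not_le.1 hc) hα

end Vale.Agent.Results.P074.SquareRootFalse
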